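import Vale.Agent.P074.Lower
import Vale.Agent.P074.Upper

namespace Vale.Agent.Results.P074.Exponent

/-- For every `d ≥ 2` the largest admissible exponent in `(0, 1]` exists and equals `1 / 3`. -/
theorem result : ∀ d : ℕ, 2 ≤ d →
    IsGreatest {α : ℝ | α ∈ Set.Ioc (0 : ℝ) 1 ∧ Vale.Agent.P074.Admissible d α} (1 / 3) := by
  intro d hd
  refine ⟨⟨⟨by norm_num, by norm_num⟩, Vale.Agent.P074.admissible_third (by omega)⟩, ?_⟩
  intro α hα
  by_contra h
  exact Vale.Agent.P074.not_admissible hd (not_le.1 h) hα.2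

end Vale.Agent.Results.P074.Exponent
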